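import Mathlib

/-!
# P088, stage 3, EST': the constants and their order

`EvC P`: `P` holds for constants chosen one after the other, each sufficiently small (or large)
depending on the previous ones. Every zone theorem has the form `EvC (fun q => ...)`.
-/

open Filter Topology Set

noncomputable section

namespace Vale.Agent.P088.R2.H31.EP

/-- The constants, in the order in which they are chosen (all of them after `n`). -/
structure Cst where
  /-- width of the tubes at the flat pass (large) -/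
  KT : ℝ
  /-- rate of the slow part of the profile (small); `R₁` and the profile depend on `n`, `KT`, `e₁` -/
  e₁ : ℝ
  /-- upper end of the window of the slope, `Φ' ≤ nm e^u` (large) -/
  nm : ℝ
  /-- the cut `E r² ~ cK K` (small) -/
  cK : ℝ
  /-- zone C: `N ≤ aC E` (small) -/
  aC : ℝ
  /-- radius of the neighbourhood of the diagonal (small) -/
  c₀ : ℝ
  /-- lower end of the window of the slope (small) -/
  ν₁ : ℝ
  /-- radius of the tubes, `|W_x| ≤ rT N` (small) -/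
  rT : ℝ
  /-- smallness of the commutators and ratio of the core cut, `Λ = e^(1/ηc)` (small) -/
  ηc : ℝ
  /-- the core is `m ≤ m₁ = min (E^.26) (CB R / σ)` (large) -/
  CB : ℝ
  /-- far pairs: `r ≥ κ₁ R` (small) -/
  κ₁ : ℝ
  /-- curvature of the level function (small) -/
  σ : ℝ
  /-- slow exponential from `r ~ c' N` (small) -/
  c' : ℝ
  /-- precision of the slow exponential (small) -/
  es : ℝ
  /-- `μ = 0` for `E ≤ Cs N` (large) -/
  Cs : ℝ
  /-- the top: third growth with rate `10 C₃ / σ` (large) -/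
  C₃ : ℝ
  /-- the top: `Θ' = e^(C₄ R / σ)` (large) -/
  C₄ : ℝ
  /-- the slope at `-∞` (large) -/
  M₀ : ℝ
  /-- sharpness of the vertex of the level function, gives the gain (large) -/
  kv : ℝ
  /-- distance of the tensors (small) -/
  ε : ℝ
  /-- `-η ≤ Gs ≤ 0`, `kap ≤ e^(η R)` (small) -/
  η : ℝ
  /-- `R ^ Ck ≤ kap` (large) -/
  Ck : ℝ
  /-- the radius of the touching ball (large) -/
  R : ℝ

/-- Small positive numbers. -/
def sml : Filter ℝ := 𝓝[>] 0

/-- `P` holds for all suitably chosen constants. -/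
def EvC (P : Cst → Prop) : Prop :=
  ∀ᶠ KT in atTop, ∀ᶠ e₁ in sml, ∀ᶠ nm in atTop, ∀ᶠ cK in sml, ∀ᶠ aC in sml, ∀ᶠ c₀ in sml,
  ∀ᶠ ν₁ in sml, ∀ᶠ rT in sml, ∀ᶠ ηc in sml, ∀ᶠ CB in atTop, ∀ᶠ κ₁ in sml,
  ∀ᶠ σ in sml, ∀ᶠ c' in sml, ∀ᶠ es in sml,
  ∀ᶠ Cs in atTop, ∀ᶠ C₃ in atTop, ∀ᶠ C₄ in atTop, ∀ᶠ M₀ in atTop, ∀ᶠ kv in atTop, ∀ᶠ ε in sml,
  ∀ᶠ η in sml, ∀ᶠ Ck in atTop, ∀ᶠ R in atTop,
    P ⟨KT, e₁, nm, cK, aC, c₀, ν₁, rT, ηc, CB, κ₁, σ, c', es, Cs, C₃, C₄, M₀, kv, ε, η, Ck, R⟩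

theorem EvC.mp {P Q : Cst → Prop} (h : EvC P) (hPQ : EvC fun q => P q → Q q) : EvC Q := by
  unfold EvC at *
  filter_upwards [h, hPQ] with _ h hPQ
  filter_upwards [h, hPQ] with _ h hPQ
  filter_upwards [h, hPQ] with _ h hPQ
  filter_upwards [h, hPQ] with _ h hPQ
  filter_upwards [h, hPQ] with _ h hPQ
  filter_upwards [h, hPQ] with _ h hPQ
  filter_upwards [h, hPQ] with _ h hPQ
  filter_upwards [h, hPQ] with _ h hPQ
  filter_upwards [h, hPQ] with _ h hPQ
  filter_upwards [h, hPQ] with _ h hPQ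
  filter_upwards [h, hPQ] with _ h hPQ
  filter_upwards [h, hPQ] with _ h hPQ
  filter_upwards [h, hPQ] with _ h hPQ
  filter_upwards [h, hPQ] with _ h hPQ
  filter_upwards [h, hPQ] with _ h hPQ
  filter_upwards [h, hPQ] with _ h hPQ
  filter_upwards [h, hPQ] with _ h hPQ
  filter_upwards [h, hPQ] with _ h hPQ
  filter_upwards [h, hPQ] with _ h hPQ
  filter_upwards [h, hPQ] with _ h hPQ
  filter_upwards [h, hPQ] with _ h hPQ
  filter_upwards [h, hPQ] with _ h hPQ
  filter_upwards [h, hPQ] with _ h hPQ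
  exact hPQ h

theorem EvC.of {P : Cst → Prop} (h : ∀ q, P q) : EvC P := by
  unfold EvC
  refine Eventually.of_forall fun _ => Eventually.of_forall fun _ => Eventually.of_forall fun _ =>
    Eventually.of_forall fun _ => Eventually.of_forall fun _ => Eventually.of_forall fun _ =>
    Eventually.of_forall fun _ => Eventually.of_forall fun _ => Eventually.of_forall fun _ =>
    Eventually.of_forall fun _ => Eventually.of_forall fun _ => Eventually.of_forall fun _ =>
    Eventually.of_forall fun _ => Eventually.of_forall fun _ => Eventually.of_forall fun _ =>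
    Eventually.of_forall fun _ => Eventually.of_forall fun _ => Eventually.of_forall fun _ =>
    Eventually.of_forall fun _ => Eventually.of_forall fun _ =>
    Eventually.of_forall fun _ => Eventually.of_forall fun _ => Eventually.of_forall fun _ => h _

theorem EvC.mono {P Q : Cst → Prop} (h : EvC P) (hPQ : ∀ q, P q → Q q) : EvC Q :=
  h.mp (EvC.of hPQ)

theorem EvC.and {P Q : Cst → Prop} (h : EvC P) (h' : EvC Q) : EvC fun q => P q ∧ Q q :=
  h.mp (h'.mono fun _ hq hp => ⟨hp, hq⟩)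

instance : sml.NeBot := by unfold sml; infer_instance

theorem sml_pos : ∀ᶠ t in sml, 0 < t := self_mem_nhdsWithin

theorem sml_le {a : ℝ} (ha : 0 < a) : ∀ᶠ t in sml, t ≤ a :=
  mem_nhdsWithin_of_mem_nhds (Iic_mem_nhds ha)

theorem sml_iff {p : ℝ → Prop} (hp : ∀ s t, 0 < s → s ≤ t → p t → p s) :
    (∀ᶠ t in sml, p t) ↔ ∃ a, 0 < a ∧ p a := by
  constructor
  · intro h
    obtain ⟨t, h1, h2⟩ := (h.and sml_pos).exists
    exact ⟨t, h2, h1⟩
  · rintro ⟨a, ha, h⟩
    filter_upwards [sml_pos, sml_le ha] with t h1 h2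
    exact hp t a h1 h2 h

/-- From an explicit threshold. -/
theorem ev_sml {p : ℝ → Prop} {a : ℝ} (ha : 0 < a) (h : ∀ t, 0 < t → t ≤ a → p t) :
    ∀ᶠ t in sml, p t := by
  filter_upwards [sml_pos, sml_le ha] with t h1 h2
  exact h t h1 h2

theorem ev_top {p : ℝ → Prop} (a : ℝ) (h : ∀ t, a ≤ t → p t) : ∀ᶠ t in atTop, p t :=
  (eventually_ge_atTop a).mono h

/-- All constants are positive; the large ones are at least `1`. -/
theorem EvC.pos : EvC fun q => (1 ≤ q.KT ∧ 0 < q.e₁ ∧ 1 ≤ q.nm ∧ 0 < q.cK ∧ 0 < q.aC ∧ 0 < q.c₀ ∧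
    0 < q.ν₁ ∧ 0 < q.rT ∧ 0 < q.ηc ∧ 1 ≤ q.CB) ∧ (0 < q.κ₁ ∧ 0 < q.σ ∧ 0 < q.c' ∧ 0 < q.es ∧
    1 ≤ q.Cs ∧ 1 ≤ q.C₃ ∧ 1 ≤ q.C₄) ∧ 1 ≤ q.M₀ ∧ 1 ≤ q.kv ∧ 0 < q.ε ∧ 0 < q.η ∧ 1 ≤ q.Ck ∧ 1 ≤ q.R := by
  unfold EvC
  filter_upwards [eventually_ge_atTop 1] with _ h1
  filter_upwards [sml_pos] with _ h2
  filter_upwards [eventually_ge_atTop 1] with _ h3
  filter_upwards [sml_pos] with _ h4
  filter_upwards [sml_pos] with _ h5
  filter_upwards [sml_pos] with _ h6
  filter_upwards [sml_pos] with _ h7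
  filter_upwards [sml_pos] with _ h8
  filter_upwards [sml_pos] with _ h8'
  filter_upwards [eventually_ge_atTop 1] with _ h8''
  filter_upwards [sml_pos] with _ h9
  filter_upwards [sml_pos] with _ h10
  filter_upwards [sml_pos] with _ h11
  filter_upwards [sml_pos] with _ h11'
  filter_upwards [eventually_ge_atTop 1] with _ h12
  filter_upwards [eventually_ge_atTop 1] with _ h12'
  filter_upwards [eventually_ge_atTop 1] with _ h12''
  filter_upwards [eventually_ge_atTop 1] with _ h13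
  filter_upwards [eventually_ge_atTop 1] with _ h13'
  filter_upwards [sml_pos] with _ h14
  filter_upwards [sml_pos] with _ h14'
  filter_upwards [eventually_ge_atTop 1] with _ h15'
  filter_upwards [eventually_ge_atTop 1] with _ h15
  exact ⟨⟨h1, h2, h3, h4, h5, h6, h7, h8, h8', h8''⟩, ⟨h9, h10, h11, h11', h12, h12', h12''⟩, h13, h13', h14, h14', h15', h15⟩

/-- The choice of the constants before `M₀`. -/
theorem EvC.choose {P : Cst → Prop} (h : EvC P) : ∃ q₀ : Cst, (0 < q₀.σ ∧ q₀.σ ≤ 1 / 10) ∧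
    ∀ᶠ M₀ in atTop, ∀ᶠ kv in atTop, ∀ᶠ ε in sml, ∀ᶠ η in sml, ∀ᶠ Ck in atTop, ∀ᶠ R in atTop,
      P { q₀ with M₀ := M₀, kv := kv, ε := ε, η := η, Ck := Ck, R := R } := by
  have h' : EvC fun q => P q ∧ 0 < q.σ ∧ q.σ ≤ 1 / 10 := by
    refine h.and ?_
    unfold EvC
    refine Eventually.of_forall fun _ => Eventually.of_forall fun _ => Eventually.of_forall fun _ =>
      Eventually.of_forall fun _ => Eventually.of_forall fun _ => Eventually.of_forall fun _ =>
      Eventually.of_forall fun _ => Eventually.of_forall fun _ => Eventually.of_forall fun _ =>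
      Eventually.of_forall fun _ => Eventually.of_forall fun _ => ?_
    filter_upwards [sml_pos, sml_le (a := 1 / 10) (by norm_num)] with _ h1 h2
    exact Eventually.of_forall fun _ => Eventually.of_forall fun _ => Eventually.of_forall fun _ =>
      Eventually.of_forall fun _ => Eventually.of_forall fun _ => Eventually.of_forall fun _ =>
      Eventually.of_forall fun _ => Eventually.of_forall fun _ => Eventually.of_forall fun _ =>
      Eventually.of_forall fun _ => Eventually.of_forall fun _ => ⟨h1, h2⟩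
  unfold EvC at h'
  obtain ⟨KT, h'⟩ := h'.exists
  obtain ⟨e₁, h'⟩ := h'.exists
  obtain ⟨nm, h'⟩ := h'.exists
  obtain ⟨cK, h'⟩ := h'.exists
  obtain ⟨aC, h'⟩ := h'.exists
  obtain ⟨c₀, h'⟩ := h'.exists
  obtain ⟨ν₁, h'⟩ := h'.exists
  obtain ⟨rT, h'⟩ := h'.exists
  obtain ⟨ηc, h'⟩ := h'.exists
  obtain ⟨CB, h'⟩ := h'.exists
  obtain ⟨κ₁, h'⟩ := h'.exists
  obtain ⟨σ, h'⟩ := h'.exists
  obtain ⟨c', h'⟩ := h'.exists
  obtain ⟨es, h'⟩ := h'.exists
  obtain ⟨Cs, h'⟩ := h'.exists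
  obtain ⟨C₃, h'⟩ := h'.exists
  obtain ⟨C₄, h'⟩ := h'.exists
  refine ⟨⟨KT, e₁, nm, cK, aC, c₀, ν₁, rT, ηc, CB, κ₁, σ, c', es, Cs, C₃, C₄, 0, 0, 0, 0, 0, 0⟩,
    ?_, ?_⟩
  · obtain ⟨_, h1⟩ := h'.exists
    obtain ⟨_, h1⟩ := h1.exists
    obtain ⟨_, h1⟩ := h1.exists
    obtain ⟨_, h1⟩ := h1.exists
    obtain ⟨_, h1⟩ := h1.exists
    obtain ⟨_, h1⟩ := h1.exists
    exact h1.2
  · filter_upwards [h'] with _ h1
    filter_upwards [h1] with _ h2
    filter_upwards [h2] with _ h3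
    filter_upwards [h3] with _ h4
    filter_upwards [h4] with _ h5
    filter_upwards [h5] with _ h6
    exact h6.1

end Vale.Agent.P088.R2.H31.EP
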